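import Mathlib
import Vale.Agent.P061.Defs
import Vale.Agent.P061.Final

open Vale.Agent.P061

namespace Vale.Agent.Results.P061.DenseThin

theorem result {V E : Type} [Fintype V] [Fintype E] [DecidableEq E] (ends : E → Sym2 V)
    (hloop : ∀ e, ¬ (ends e).IsDiag) (k μ : ℕ) (hk : 1 ≤ k) (hV : 2 ≤ Fintype.card V)
    (hconn : ∀ S : Finset V, S.Nonempty → S ≠ Finset.univ → k ≤ (cut ends S).card)
    (hμ : ∀ x y : V, {e : E | ends e = s(x, y)}.ncard ≤ μ) :
    ∃ T : Finset E, IsSpanningTree ends T ∧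
      ∀ S : Finset V, S.Nonempty → S ≠ Finset.univ →
        ((T ∩ cut ends S).card : ℝ) ≤
          (80 * ((μ : ℝ) * Fintype.card V / k) ^ 2 / k) * (cut ends S).card := by
  classical
  obtain ⟨T, h1, h2⟩ := dense_thin ends hloop k μ hk hV hconn (fun x y => by
    have h := hμ x y
    rw [Set.ncard_eq_toFinset_card'] at h
    unfold w
    simpa using h)
  refine ⟨T, h1, fun S hS1 hS2 => ?_⟩
  have h3 := h2 S hS1 hS2
  have hk' : (0 : ℝ) < k := by exact_mod_cast hk
  have h4 : (k : ℝ) ^ 3 * ((T ∩ cut ends S).card : ℝ) ≤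
      80 * ((μ : ℝ) * Fintype.card V) ^ 2 * (cut ends S).card := by
    have h5 : ((k ^ 3 * (T ∩ cut ends S).card : ℕ) : ℝ) ≤
        ((80 * (μ * Fintype.card V) ^ 2 * (cut ends S).card : ℕ) : ℝ) := by
      exact_mod_cast h3
    push_cast at h5
    exact h5
  have h6 : (80 * ((μ : ℝ) * Fintype.card V / k) ^ 2 / k) * (cut ends S).card =
      (80 * ((μ : ℝ) * Fintype.card V) ^ 2 * (cut ends S).card) / (k : ℝ) ^ 3 := by
    field_simp
  rw [h6, le_div_iff₀ (by positivity)]
  linarith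

end Vale.Agent.Results.P061.DenseThin
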